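import Crest.Agent.R320F.Hk1_851

/-!
# Row 320: block calculus, one level and two levels (helper517)

`XX` a prefix code of blocks, `T v X` the zone map of the token `v` along the block `X`.
`level`: one star. The promise costs nothing: intersect with `C*`.
-/

set_option autoImplicit false

namespace Crest.Agent.R320.Blk_517

open Crest.RegLang Crest.Agent.R320.Hk_851

universe u

variable {α : Type u} {V : Type*} {k : ℕ}

/-- run of the zone maps -/
def runB (T : V → List α → V) (v : V) (Ms : List (List α)) : V := Ms.foldl T v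

@[simp] theorem runB_nil (T : V → List α → V) (v : V) : runB T v [] = v := rfl

@[simp] theorem runB_cons (T : V → List α → V) (v : V) (X : List α) (Ms : List (List α)) :
    runB T v (X :: Ms) = runB T (T v X) Ms := rfl

theorem runB_append (T : V → List α → V) (v : V) (Ms Ns : List (List α)) :
    runB T v (Ms ++ Ns) = runB T (runB T v Ms) Ns := by
  simp [runB, List.foldl_append]

/-- the words over the blocks `C` which move `v` to `v'` -/
def BL (C : Set (List α)) (T : V → List α → V) (v v' : V) : Language α :=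
  {w | ∃ Ms : List (List α), (∀ X ∈ Ms, X ∈ C) ∧ w = Ms.flatten ∧ runB T v Ms = v'}

/-- the words over the blocks `C` -/
def St (C : Set (List α)) : Language α :=
  {w | ∃ Ms : List (List α), (∀ X ∈ Ms, X ∈ C) ∧ w = Ms.flatten}

/-- prefix code -/
def PCode (XX : Set (List α)) : Prop := [] ∉ XX ∧ ∀ X ∈ XX, ∀ Y ∈ XX, X <+: Y → X = Y

theorem PCode.unique {XX : Set (List α)} (h : PCode XX) :
    ∀ Ms Ns : List (List α), (∀ X ∈ Ms, X ∈ XX) → (∀ X ∈ Ns, X ∈ XX) →
      Ms.flatten = Ns.flatten → Ms = Ns := by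
  intro Ms
  induction Ms with
  | nil =>
    intro Ns _ hN he
    cases Ns with
    | nil => rfl
    | cons Y Ns =>
      simp only [List.flatten_nil, List.flatten_cons] at he
      have : Y = [] := (List.append_eq_nil_iff.1 he.symm).1
      exact (h.1 (this ▸ hN Y (by simp))).elim
  | cons X Ms ih =>
    intro Ns hM hN he
    cases Ns with
    | nil =>
      simp only [List.flatten_nil, List.flatten_cons] at he
      have : X = [] := (List.append_eq_nil_iff.1 he).1
      exact (h.1 (this ▸ hM X (by simp))).elim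
    | cons Y Ns =>
      simp only [List.flatten_cons] at he
      have hXY : X = Y := by
        rcases List.prefix_or_prefix_of_prefix (l₁ := X) (l₂ := Y) (l₃ := X ++ Ms.flatten)
          ⟨_, rfl⟩ (he ▸ ⟨_, rfl⟩) with h1 | h1
        · exact h.2 X (hM X (by simp)) Y (hN Y (by simp)) h1
        · exact (h.2 Y (hN Y (by simp)) X (hM X (by simp)) h1).symm
      subst hXY
      rw [ih Ns (fun Z hZ => hM Z (by simp [hZ])) (fun Z hZ => hN Z (by simp [hZ]))
        (List.append_cancel_left he)]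

theorem St_hl {C : Language α} (hC : HL k C) : HL (k + 1) (St C) := by
  refine hC.star.congr fun w => ?_
  constructor
  · rintro ⟨Ms, h1, h2⟩; exact Language.mem_kstar.2 ⟨Ms, h2, h1⟩
  · intro h
    obtain ⟨Ms, h1, h2⟩ := Language.mem_kstar.1 h
    exact ⟨Ms, h2, h1⟩

/-- the words with label `v` -/
def LS (L : List α → Option V) (v : V) : Language α := {P | L P = some v}

/-- flights between two cuts -/
def KK (Bad : Set (List α)) (T : V → List α → V) (L R : List α → Option V) : Language α :=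
  {w | ∃ v1 v2, w ∈ LS R v1 * BL Bad T v1 v2 *
    LS L v2}

/-- the claimed language -/
def EE (Bad : Set (List α)) (T : V → List α → V) (L R : List α → Option V) (v v' : V) :
    Language α :=
  {w | w ∈ BL Bad T v v' ∨ ∃ v1 v2, w ∈ BL Bad T v v1 * LS L v1 *
    KStar.kstar (KK Bad T L R) * LS R v2 * BL Bad T v2 v'}

theorem EE_hl [Finite V] {Bad : Set (List α)} {T : V → List α → V} {L R : List α → Option V}
    (hL : ∀ v, HL k (LS L v))
    (hR : ∀ v, HL k (LS R v))
    (hBad : ∀ v v', HL k (BL Bad T v v')) (v v' : V) :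
    HL (k + 1) (EE Bad T L R v v') := by
  have hK : HL k (KK Bad T L R) := by
    refine (HL.iUnion (L := fun v1 : V => ({w | ∃ v2, w ∈ LS R v1 *
      BL Bad T v1 v2 * LS L v2} : Language α)) fun v1 => ?_).congr ?_
    · refine (HL.iUnion (L := fun v2 : V => (LS R v1 *
        BL Bad T v1 v2 * LS L v2)) fun v2 => ?_).congr ?_
      · exact ((hR v1).mul (hBad v1 v2)).mul (hL v2)
      · intro w; exact Iff.rfl
    · intro w; exact Iff.rfl
  have hk : k ≤ k + 1 := Nat.le_succ k
  refine HL.setOf_or ((hBad v v').mono hk) ?_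
  refine (HL.iUnion (L := fun v1 : V => ({w | ∃ v2, w ∈ BL Bad T v v1 *
    LS L v1 * KStar.kstar (KK Bad T L R) *
    LS R v2 * BL Bad T v2 v'} : Language α)) fun v1 => ?_).congr ?_
  · refine (HL.iUnion (L := fun v2 : V => (BL Bad T v v1 * LS L v1 *
      KStar.kstar (KK Bad T L R) * LS R v2 * BL Bad T v2 v'))
      fun v2 => ?_).congr ?_
    · exact ((((hBad v v1).mono hk).mul ((hL v1).mono hk)).mul hK.star).mul
        ((hR v2).mono hk) |>.mul ((hBad v2 v').mono hk)
    · intro w; exact Iff.rfl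
  · intro w; exact Iff.rfl

/-- completeness -/
theorem mem_EE {C Bad : Set (List α)} {T : V → List α → V} {L R : List α → Option V}
    (complete : ∀ X ∈ C, X ∉ Bad → ∀ v, ∃ P Q, X = P ++ Q ∧ L P = some v ∧
      R Q = some (T v X)) :
    ∀ (Ms : List (List α)) (v : V), (∀ X ∈ Ms, X ∈ C) →
      Ms.flatten ∈ EE Bad T L R v (runB T v Ms) := by
  intro Ms
  induction Ms with
  | nil => intro v _; exact Or.inl ⟨[], by simp, rfl, rfl⟩
  | cons X Ms ih =>
    intro v hM
    have hX : X ∈ C := hM X (by simp)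
    have hI := ih (T v X) (fun Z hZ => hM Z (by simp [hZ]))
    by_cases hb : X ∈ Bad
    · rcases hI with ⟨Ns, h1, h2, h3⟩ | ⟨v1, v2, h⟩
      · refine Or.inl ⟨X :: Ns, ?_, ?_, ?_⟩
        · intro Z hZ
          rcases List.mem_cons.1 hZ with rfl | hZ
          · exact hb
          · exact h1 Z hZ
        · rw [List.flatten_cons, List.flatten_cons, h2]
        · rw [runB_cons, h3, runB_cons]
      · refine Or.inr ⟨v1, v2, ?_⟩
        obtain ⟨a4, h4, a5, h5, e4⟩ := Language.mem_mul.1 h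
        obtain ⟨a3, h3, q, hq, e3⟩ := Language.mem_mul.1 h4
        obtain ⟨a2, h2, s, hs, e2⟩ := Language.mem_mul.1 h3
        obtain ⟨a1, ⟨Ns, h1, e0, hr⟩, p, hp, e1⟩ := Language.mem_mul.1 h2
        refine Language.mem_mul.2 ⟨X ++ a4, ?_, a5, h5, ?_⟩
        · refine Language.mem_mul.2 ⟨X ++ a3, ?_, q, hq, ?_⟩
          · refine Language.mem_mul.2 ⟨X ++ a2, ?_, s, hs, ?_⟩
            · refine Language.mem_mul.2 ⟨X ++ a1, ⟨X :: Ns, ?_, ?_, ?_⟩, p, hp, ?_⟩
              · intro Z hZ
                rcases List.mem_cons.1 hZ with rfl | hZ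
                · exact hb
                · exact h1 Z hZ
              · rw [List.flatten_cons, e0]
              · rw [runB_cons, hr]
              · rw [List.append_assoc, e1]
            · rw [List.append_assoc, e2]
          · rw [List.append_assoc, e3]
        · rw [List.append_assoc, e4, List.flatten_cons]
    · obtain ⟨P, Q, hPQ, hP, hQ⟩ := complete X hX hb v
      have hnil : ([] : List α) ∈ BL Bad T v v := ⟨[], by simp, rfl, rfl⟩
      rcases hI with h | ⟨v1, v2, h⟩
      · refine Or.inr ⟨v, T v X, ?_⟩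
        refine Language.mem_mul.2 ⟨P ++ Q, ?_, Ms.flatten, h, ?_⟩
        · refine Language.mem_mul.2 ⟨P, ?_, Q, hQ, rfl⟩
          refine Language.mem_mul.2 ⟨P, ?_, [], Language.nil_mem_kstar _, by simp⟩
          exact Language.mem_mul.2 ⟨[], hnil, P, hP, by simp⟩
        · rw [List.flatten_cons, hPQ]
      · obtain ⟨a4, h4, a5, h5, e4⟩ := Language.mem_mul.1 h
        obtain ⟨a3, h3, q, hq, e3⟩ := Language.mem_mul.1 h4
        obtain ⟨a2, h2, s, hs, e2⟩ := Language.mem_mul.1 h3
        obtain ⟨a1, h1, p, hp, e1⟩ := Language.mem_mul.1 h2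
        have hKw : Q ++ a1 ++ p ∈ KK Bad T L R := by
          refine ⟨T v X, v1, ?_⟩
          exact Language.mem_mul.2 ⟨Q ++ a1, Language.mem_mul.2 ⟨Q, hQ, a1, h1, rfl⟩, p, hp, rfl⟩
        have hst : (Q ++ a1 ++ p) ++ s ∈ KStar.kstar (KK Bad T L R) := by
          obtain ⟨Ss, hS1, hS2⟩ := Language.mem_kstar.1 hs
          refine Language.mem_kstar.2 ⟨(Q ++ a1 ++ p) :: Ss, ?_, ?_⟩
          · rw [List.flatten_cons, hS1]
          · intro y hy
            rcases List.mem_cons.1 hy with rfl | hy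
            · exact hKw
            · exact hS2 y hy
        refine Or.inr ⟨v, v2, ?_⟩
        refine Language.mem_mul.2 ⟨P ++ ((Q ++ a1 ++ p) ++ s) ++ q, ?_, a5, h5, ?_⟩
        · refine Language.mem_mul.2 ⟨P ++ ((Q ++ a1 ++ p) ++ s), ?_, q, hq, rfl⟩
          refine Language.mem_mul.2 ⟨P, ?_, _, hst, rfl⟩
          exact Language.mem_mul.2 ⟨[], hnil, P, hP, by simp⟩
        · rw [List.flatten_cons, ← e4, ← e3, ← e2, ← e1, hPQ]
          simp [List.append_assoc]

theorem PCode.split {XX : Set (List α)} (h : PCode XX) :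
    ∀ Bs Ms : List (List α), ∀ r, (∀ X ∈ Ms, X ∈ XX) → (∀ X ∈ Bs, X ∈ XX) →
      Ms.flatten = Bs.flatten ++ r → ∃ Ns, Ms = Bs ++ Ns ∧ Ns.flatten = r := by
  intro Bs
  induction Bs with
  | nil => intro Ms r _ _ he; exact ⟨Ms, rfl, by simpa using he⟩
  | cons X Bs ih =>
    intro Ms r hM hB he
    cases Ms with
    | nil =>
      simp only [List.flatten_nil, List.flatten_cons, List.append_assoc] at he
      have : X = [] := (List.append_eq_nil_iff.1 he.symm).1
      exact (h.1 (this ▸ hB X (by simp))).elim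
    | cons Y Ms =>
      simp only [List.flatten_cons, List.append_assoc] at he
      have hXY : X = Y := by
        rcases List.prefix_or_prefix_of_prefix (l₁ := X) (l₂ := Y) (l₃ := Y ++ Ms.flatten)
          (he ▸ ⟨_, rfl⟩) ⟨_, rfl⟩ with h1 | h1
        · exact h.2 X (hB X (by simp)) Y (hM Y (by simp)) h1
        · exact (h.2 Y (hM Y (by simp)) X (hB X (by simp)) h1).symm
      subst hXY
      obtain ⟨Ns, h1, h2⟩ := ih Ms r (fun Z hZ => hM Z (by simp [hZ]))
        (fun Z hZ => hB Z (by simp [hZ])) (List.append_cancel_left he)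
      exact ⟨Ns, by rw [h1]; rfl, h2⟩

/-- soundness: the true block at a junction is the claimed one -/
def Sound (C : Set (List α)) (T : V → List α → V) (L R : List α → Option V) : Prop :=
  ∀ P Q v v' X, L P = some v → R Q = some v' → X ∈ C → (X <+: P ++ Q ∨ P ++ Q <+: X) →
    X = P ++ Q ∧ T v X = v'

/-- what a claim means on `C*` -/
theorem EE_sound {XX C Bad : Set (List α)} {T : V → List α → V}
    {L R : List α → Option V} (hXX : PCode XX) (hCX : C ⊆ XX) (hBX : Bad ⊆ XX)
    (hL0 : L [] = none) (sound : Sound C T L R) (v v' : V)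
    (Ms : List (List α)) (hM : ∀ X ∈ Ms, X ∈ C) (hw : Ms.flatten ∈ EE Bad T L R v v') :
    runB T v Ms = v' := by
  have step : ∀ (p q r : List α) (v1 w1 : V) (Ns : List (List α)), L p = some v1 →
      R q = some w1 → (∀ X ∈ Ns, X ∈ C) → Ns.flatten = p ++ (q ++ r) →
      ∃ Ns', (∀ X ∈ Ns', X ∈ C) ∧ Ns'.flatten = r ∧ runB T v1 Ns = runB T w1 Ns' := by
    intro p q r v1 w1 Ns hp hq hN he
    cases Ns with
    | nil =>
      simp only [List.flatten_nil] at he
      have : p = [] := (List.append_eq_nil_iff.1 he.symm).1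
      rw [this, hL0] at hp
      exact absurd hp (by simp)
    | cons X Ns =>
      simp only [List.flatten_cons] at he
      have hX : X ∈ C := hN X (by simp)
      have hcmp : X <+: p ++ q ∨ p ++ q <+: X :=
        List.prefix_or_prefix_of_prefix (l₃ := X ++ Ns.flatten) ⟨_, rfl⟩
          ⟨r, by rw [he, List.append_assoc]⟩
      obtain ⟨h1, h2⟩ := sound p q v1 w1 X hp hq hX hcmp
      refine ⟨Ns, fun Y hY => hN Y (by simp [hY]), ?_, ?_⟩
      · rw [h1, List.append_assoc] at he
        exact List.append_cancel_left (List.append_cancel_left he)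
      · rw [runB_cons, h2]
  have key : ∀ S : List (List α), (∀ y ∈ S, y ∈ KK Bad T L R) → ∀ (p r : List α) (v1 : V)
      (Ns : List (List α)), L p = some v1 → (∀ X ∈ Ns, X ∈ C) →
      Ns.flatten = p ++ (S.flatten ++ r) →
      ∃ (Ns' : List (List α)) (p' : List α) (v1' : V), L p' = some v1' ∧
        (∀ X ∈ Ns', X ∈ C) ∧ Ns'.flatten = p' ++ r ∧ runB T v1 Ns = runB T v1' Ns' := by
    intro S
    induction S with
    | nil => intro _ p r v1 Ns hp hN he; exact ⟨Ns, p, v1, hp, hN, by simpa using he, rfl⟩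
    | cons y S ih =>
      intro hS p r v1 Ns hp hN he
      obtain ⟨w1, w2, hy⟩ := hS y (by simp)
      obtain ⟨a, ha, p2, hp2, e2⟩ := Language.mem_mul.1 hy
      obtain ⟨q, hq, m, ⟨Bs, hB1, hB2, hB3⟩, e1⟩ := Language.mem_mul.1 ha
      rw [List.flatten_cons, ← e2, ← e1] at he
      simp only [List.append_assoc] at he
      obtain ⟨N1, k1, k2, k3⟩ := step p q _ v1 w1 Ns hp hq hN he
      rw [hB2] at k2
      obtain ⟨N2, k4, k5⟩ := hXX.split Bs N1 _ (fun X hX => hCX (k1 X hX))
        (fun X hX => hBX (hB1 X hX)) k2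
      obtain ⟨N3, p', v1', l1, l2, l3, l4⟩ := ih (fun z hz => hS z (by simp [hz])) p2 r w2 N2 hp2
        (fun X hX => k1 X (by rw [k4]; simp [hX])) k5
      refine ⟨N3, p', v1', l1, l2, l3, ?_⟩
      rw [k3, k4, runB_append, hB3, l4]
  rcases hw with ⟨Ns, h1, h2, h3⟩ | ⟨v1, v2, h⟩
  · have := hXX.unique Ms Ns (fun X hX => hCX (hM X hX)) (fun X hX => hBX (h1 X hX)) h2
    rw [this]; exact h3
  · obtain ⟨a4, h4, a5, ⟨Bs2, hb1, hb2, hb3⟩, e4⟩ := Language.mem_mul.1 h
    obtain ⟨a3, h3, q, hq, e3⟩ := Language.mem_mul.1 h4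
    obtain ⟨a2, h2, s, hs, e2⟩ := Language.mem_mul.1 h3
    obtain ⟨a1, ⟨Bs1, hc1, hc2, hc3⟩, p, hp, e1⟩ := Language.mem_mul.1 h2
    obtain ⟨S, hS1, hS2⟩ := Language.mem_kstar.1 hs
    have he : Ms.flatten = Bs1.flatten ++ (p ++ (S.flatten ++ (q ++ Bs2.flatten))) := by
      rw [← e4, ← e3, ← e2, ← e1, hc2, hb2, hS1]
      simp only [List.append_assoc]
    obtain ⟨N1, k1, k2⟩ := hXX.split Bs1 Ms _ (fun X hX => hCX (hM X hX))
      (fun X hX => hBX (hc1 X hX)) he
    have hN1 : ∀ X ∈ N1, X ∈ C := fun X hX => hM X (by rw [k1]; simp [hX])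
    obtain ⟨N2, p', v1', l1, l2, l3, l4⟩ := key S hS2 p _ v1 N1 hp hN1 k2
    obtain ⟨N3, m1, m2, m3⟩ := step p' q _ v1' v2 N2 l1 hq l2 l3
    have := hXX.unique N3 Bs2 (fun X hX => hCX (m1 X hX)) (fun X hX => hBX (hb1 X hX)) m2
    rw [k1, runB_append, hc3, l4, m3, this, hb3]

/-- **one level, one star** -/
theorem level [Finite V] {XX C Bad : Set (List α)} {T : V → List α → V}
    {L R : List α → Option V} (hXX : PCode XX) (hCX : C ⊆ XX) (hBX : Bad ⊆ XX)
    (hL : ∀ v, HL k (LS L v)) (hR : ∀ v, HL k (LS R v)) (hL0 : L [] = none)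
    (sound : Sound C T L R)
    (complete : ∀ X ∈ C, X ∉ Bad → ∀ v, ∃ P Q, X = P ++ Q ∧ L P = some v ∧
      R Q = some (T v X))
    (hC : HL (k + 1) (St C)) (hBad : ∀ v v', HL k (BL Bad T v v')) (v v' : V) :
    HL (k + 1) (BL C T v v') := by
  refine (hC.inf (EE_hl hL hR hBad v v')).congr fun w => ?_
  constructor
  · rintro ⟨Ms, h1, rfl, h3⟩
    exact ⟨⟨Ms, h1, rfl⟩, h3 ▸ mem_EE complete Ms v h1⟩
  · rintro ⟨⟨Ms, h1, rfl⟩, h2⟩
    exact ⟨Ms, h1, rfl, EE_sound hXX hCX hBX hL0 sound v v' Ms h1 h2⟩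

/-- the blocks in which some token is not cut by the scheme `L, R` -/
def BadOf (XX : Set (List α)) (T : V → List α → V) (L R : List α → Option V) : Set (List α) :=
  {X | X ∈ XX ∧ ∃ v, ∀ P Q, X = P ++ Q → L P = some v → R Q ≠ some (T v X)}

/-- **two schemes on one finite prefix code, the same zone maps: height two** -/
theorem two_levels [Finite V] {XX : Set (List α)} (hfin : XX.Finite) (hXX : PCode XX)
    {T : V → List α → V} {L1 R1 L2 R2 : List α → Option V}
    (hL1 : ∀ v, HL 1 (LS L1 v)) (hR1 : ∀ v, HL 1 (LS R1 v))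
    (hL2 : ∀ v, HL 0 (LS L2 v)) (hR2 : ∀ v, HL 0 (LS R2 v))
    (h10 : L1 [] = none) (h20 : L2 [] = none)
    (s1 : Sound XX T L1 R1) (s2 : Sound (BadOf XX T L1 R1) T L2 R2)
    (c2 : ∀ X ∈ BadOf XX T L1 R1, ∀ v, ∃ P Q, X = P ++ Q ∧ L2 P = some v ∧
      R2 Q = some (T v X)) (v v' : V) :
    HL 2 (BL XX T v v') := by
  have hB : BadOf XX T L1 R1 ⊆ XX := fun X hX => hX.1
  have hbad : ∀ v v', HL 1 (BL (BadOf XX T L1 R1) T v v') := by
    intro v v'
    refine level (k := 0) (XX := XX) (Bad := ∅) hXX hB (Set.empty_subset _) hL2 hR2 h20 s2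
      (fun X hX _ v => c2 X hX v) ?_ ?_ v v'
    · exact St_hl (HL.finite (hfin.subset hB))
    · intro v v'
      refine HL.finite ((Set.finite_singleton ([] : List α)).subset ?_)
      rintro w ⟨Ms, h1, rfl, -⟩
      cases Ms with
      | nil => rfl
      | cons X Ms => exact (h1 X (by simp)).elim
  refine level (k := 1) (XX := XX) (Bad := BadOf XX T L1 R1) hXX le_rfl hB hL1 hR1 h10 s1 ?_ ?_
    hbad v v'
  · intro X hX hXB v
    by_contra hcon
    refine hXB ⟨hX, v, fun P Q h1 h2 h3 => hcon ⟨P, Q, h1, h2, h3⟩⟩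
  · exact (St_hl (k := 0) (HL.finite hfin)).mono (by omega)

end Crest.Agent.R320.Blk_517
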