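import Mathlib
import Crest.Agent.R320F.Ruler_302

/-!
Row 320, helper257: the thin ruler for 693's grid gadget (662's request), pure arithmetic.
`x a = U * 4 ^ a`; at most one pair `a ≠ b` per modulus and per level makes `T + x a - x b` bad.
-/

set_option autoImplicit false

namespace Crest.Agent.R320.GridRuler_257

open Finset Crest.Agent.R320.Ruler_302

/-- bad totals of the grid gadget: a modulus divides, or `T - A j` is within `M * G (j-1)` of a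
multiple of `G j` for some level `1 ≤ j ≤ m`. -/
def BadZ (Ms : Finset ℕ) (m M : ℕ) (G A : ℕ → ℕ) (T : ℤ) : Prop :=
  (∃ k ∈ Ms, (k : ℤ) ∣ T) ∨
    ∃ j, 1 ≤ j ∧ j ≤ m ∧ ∃ d : ℤ, |d| ≤ (M * G (j - 1) : ℕ) ∧ (G j : ℤ) ∣ T - A j - d

theorem G_dvd {G : ℕ → ℕ} (hG : ∀ j, G j ∣ G (j + 1)) {i j : ℕ} (h : i ≤ j) : G i ∣ G j := by
  induction h with
  | refl => exact dvd_rfl
  | step _ ih => exact ih.trans (hG _)

theorem BadZ_period {Ms : Finset ℕ} {m M : ℕ} {G A : ℕ → ℕ} (hMs : ∀ k ∈ Ms, k ∣ M)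
    (hG : ∀ j, G j ∣ G (j + 1)) (T : ℤ) :
    BadZ Ms m M G A (T + (M * G m : ℕ)) ↔ BadZ Ms m M G A T := by
  have h1 : ∀ k ∈ Ms, (k : ℤ) ∣ ((M * G m : ℕ) : ℤ) := fun k hk =>
    Int.natCast_dvd_natCast.2 (Dvd.dvd.mul_right (hMs k hk) _)
  have h2 : ∀ j, j ≤ m → (G j : ℤ) ∣ ((M * G m : ℕ) : ℤ) := fun j hj =>
    Int.natCast_dvd_natCast.2 (Dvd.dvd.mul_left (G_dvd hG hj) _)
  unfold BadZ
  constructor
  · rintro (⟨k, hk, h⟩ | ⟨j, a, b, d, hd, h⟩)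
    · exact Or.inl ⟨k, hk, (dvd_add_left (h1 k hk)).1 h⟩
    · refine Or.inr ⟨j, a, b, d, hd, ?_⟩
      have e : T + ((M * G m : ℕ) : ℤ) - A j - d = (T - A j - d) + ((M * G m : ℕ) : ℤ) := by ring
      rw [e] at h
      exact (dvd_add_left (h2 j b)).1 h
  · rintro (⟨k, hk, h⟩ | ⟨j, a, b, d, hd, h⟩)
    · exact Or.inl ⟨k, hk, dvd_add h (h1 k hk)⟩
    · refine Or.inr ⟨j, a, b, d, hd, ?_⟩
      have e : T + ((M * G m : ℕ) : ℤ) - A j - d = (T - A j - d) + ((M * G m : ℕ) : ℤ) := by ring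
      rw [e]
      exact dvd_add h (h2 j b)

/-- natural-number form of 'not bad' -/
theorem clear_of_not_bad {Ms : Finset ℕ} {m M : ℕ} {G A : ℕ → ℕ} (hGp : ∀ j, 0 < G j) {T : ℕ}
    (hT : ∀ j, 1 ≤ j → j ≤ m → A j ≤ T) (h : ¬ BadZ Ms m M G A (T : ℤ)) :
    (∀ k ∈ Ms, ¬ k ∣ T) ∧ ∀ j, 1 ≤ j → j ≤ m →
      M * G (j - 1) < (T - A j) % G j ∧ (T - A j) % G j + M * G (j - 1) < G j := by
  unfold BadZ at h
  push Not at h
  obtain ⟨h1, h2⟩ := h
  refine ⟨fun k hk hd => h1 k hk (Int.natCast_dvd_natCast.2 hd), fun j a b => ?_⟩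
  have hA := hT j a b
  have hcast : (T : ℤ) - A j = ((T - A j : ℕ) : ℤ) := by omega
  have hdm := Nat.div_add_mod (T - A j) (G j)
  have hlt := Nat.mod_lt (T - A j) (hGp j)
  constructor
  · by_contra hc
    push Not at hc
    refine h2 j a b (((T - A j) % G j : ℕ) : ℤ) ?_ ?_
    · rw [abs_of_nonneg (by positivity)]
      exact_mod_cast hc
    · rw [hcast]
      refine ⟨(((T - A j) / G j : ℕ) : ℤ), ?_⟩
      have : ((T - A j : ℕ) : ℤ) = (G j : ℤ) * ((T - A j) / G j : ℕ) + ((T - A j) % G j : ℕ) := by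
        exact_mod_cast hdm.symm
      linarith
  · by_contra hc
    push Not at hc
    refine h2 j a b ((((T - A j) % G j : ℕ) : ℤ) - G j) ?_ ?_
    · rw [abs_le]
      constructor
      · have : (G j : ℤ) ≤ (((T - A j) % G j : ℕ) : ℤ) + ((M * G (j - 1) : ℕ) : ℤ) := by
          exact_mod_cast hc
        linarith
      · have h3 : (((T - A j) % G j : ℕ) : ℤ) < G j := by exact_mod_cast hlt
        have h4 : (0 : ℤ) ≤ ((M * G (j - 1) : ℕ) : ℤ) := by positivity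
        linarith
    · rw [hcast]
      refine ⟨(((T - A j) / G j : ℕ) : ℤ) + 1, ?_⟩
      have : ((T - A j : ℕ) : ℤ) = (G j : ℤ) * ((T - A j) / G j : ℕ) + ((T - A j) % G j : ℕ) := by
        exact_mod_cast hdm.symm
      linarith

theorem level_unique {K : ℕ} {g S U c A T : ℤ} (hc : 0 ≤ c) (hS : 4 * c ≤ S) (hc0 : 0 < c)
    (hS2 : S ≤ 8 * c) (hg : 16 * 4 ^ K * c ≤ g) (hU : g ∣ U - S) {a b a' b' : ℕ}
    (ha : a < K) (hb : b < K) (ha' : a' < K) (hb' : b' < K) (hab : a ≠ b) {d d' : ℤ}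
    (hd : |d| ≤ c) (hd' : |d'| ≤ c)
    (h : g ∣ T + U * 4 ^ a - U * 4 ^ b - A - d) (h' : g ∣ T + U * 4 ^ a' - U * 4 ^ b' - A - d') :
    a = a' ∧ b = b' := by
  set e : ℤ := ((4 : ℤ) ^ a - 4 ^ b) - (4 ^ a' - 4 ^ b') with he
  have h1 : g ∣ S * e - (d - d') := by
    have h2 : S * e - (d - d') = (T + U * 4 ^ a - U * 4 ^ b - A - d) -
        (T + U * 4 ^ a' - U * 4 ^ b' - A - d') - (U - S) * e := by rw [he]; ring
    rw [h2]
    exact dvd_sub (dvd_sub h h') (Dvd.dvd.mul_right hU e)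
  have h3 := spread ha hb ha' hb'
  rw [← he] at h3
  have hK : (0 : ℤ) < 4 ^ K := by positivity
  have h4 : |S * e| ≤ 8 * c * 4 ^ K := by
    rw [abs_mul, abs_of_nonneg (by linarith : (0 : ℤ) ≤ S)]
    exact mul_le_mul hS2 h3.le (abs_nonneg _) (by linarith)
  have h5 : |S * e - (d - d')| < g := by
    have h6 : |S * e - (d - d')| ≤ |S * e| + (|d| + |d'|) := by
      calc |S * e - (d - d')| ≤ |S * e| + |d - d'| := abs_sub _ _
        _ ≤ |S * e| + (|d| + |d'|) := by linarith [abs_sub d d']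
    have h7 : (1 : ℤ) ≤ 4 ^ K := hK
    nlinarith
  have h8 : S * e - (d - d') = 0 := Int.eq_zero_of_abs_lt_dvd h1 h5
  have h9 : e = 0 := by
    by_contra hne
    have h10 : 1 ≤ |e| := Int.one_le_abs hne
    have h11 : |S * e| = |d - d'| := by rw [show S * e = d - d' by linarith]
    rw [abs_mul, abs_of_nonneg (by linarith : (0 : ℤ) ≤ S)] at h11
    have h12 := abs_sub d d'
    nlinarith
  exact sidon hab (by linarith)

theorem ruler (K m : ℕ) (Ms : Finset ℕ) (M : ℕ) (G A : ℕ → ℕ) (N : ℕ) (hM : 0 < M)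
    (hMs : ∀ k ∈ Ms, k ∣ M ∧ 4 ^ K ≤ k) (hG0 : 0 < G 0) (hG : ∀ j, G j ∣ G (j + 1))
    (hGb : ∀ j, 16 * 4 ^ K * (M * G j) ≤ G (j + 1)) (hcop : Nat.Coprime M (G m)) :
    ∃ U : ℕ, 4 * N < U ∧ (∀ i j, i < j → U * 4 ^ i + 4 * N < U * 4 ^ j) ∧
      (∀ a b c d : ℕ, a ≠ b → (a = c ∧ b = d) ∨
        (4 * N : ℤ) < |(((U * 4 ^ a : ℕ) : ℤ) - (U * 4 ^ b : ℕ)) -
          (((U * 4 ^ c : ℕ) : ℤ) - (U * 4 ^ d : ℕ))|) ∧
      ∀ T : ℤ, ∀ s : Finset (ℕ × ℕ), (∀ ab ∈ s, ab.1 < K ∧ ab.2 < K ∧ ab.1 ≠ ab.2 ∧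
        BadZ Ms m M G A (T + (U * 4 ^ ab.1 : ℕ) - (U * 4 ^ ab.2 : ℕ))) →
        s.card ≤ Ms.card + m := by
  classical
  have hGp : ∀ j, 0 < G j := by
    intro j
    induction j with
    | zero => exact hG0
    | succ j ih =>
      have := hGb j
      have h2 : 0 < 16 * 4 ^ K * (M * G j) := by positivity
      omega
  -- CRT
  obtain ⟨U0, hU1, hU2⟩ := Nat.chineseRemainder hcop 1 (4 * ∑ i ∈ range m, M * G i)
  set P := M * G m with hP
  have hPp : 0 < P := Nat.mul_pos hM (hGp m)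
  set U := U0 + P * (4 * N + 1) with hU
  have hUN : 4 * N < U := by
    have : 4 * N + 1 ≤ P * (4 * N + 1) := Nat.le_mul_of_pos_left _ hPp
    omega
  have hUp : 0 < U := by omega
  have hUM : ((M : ℕ) : ℤ) ∣ (U : ℤ) - 1 := by
    have h1 : ((M : ℕ) : ℤ) ∣ (U0 : ℤ) - 1 := by
      have := (Nat.modEq_iff_dvd.1 hU1.symm)
      simpa using this
    have h2 : (U : ℤ) - 1 = ((U0 : ℤ) - 1) + (M : ℤ) * ((G m : ℤ) * (4 * N + 1)) := by
      rw [hU, hP]; push_cast; ring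
    rw [h2]
    exact dvd_add h1 (Dvd.intro _ rfl)
  have hUG : ((G m : ℕ) : ℤ) ∣ (U : ℤ) - (4 * ∑ i ∈ range m, M * G i : ℕ) := by
    have h1 : ((G m : ℕ) : ℤ) ∣ (U0 : ℤ) - (4 * ∑ i ∈ range m, M * G i : ℕ) :=
      Nat.modEq_iff_dvd.1 hU2.symm
    have h2 : (U : ℤ) - (4 * ∑ i ∈ range m, M * G i : ℕ) =
        ((U0 : ℤ) - (4 * ∑ i ∈ range m, M * G i : ℕ)) + (G m : ℤ) * ((M : ℤ) * (4 * N + 1)) := by
      rw [hU, hP]; push_cast; ring
    rw [h2]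
    exact dvd_add h1 (Dvd.intro _ rfl)
  -- the partial sums
  have hSb : ∀ j, (∑ i ∈ range (j + 1), M * G i) ≤ 2 * (M * G j) := by
    intro j
    induction j with
    | zero => simp; omega
    | succ j ih =>
      rw [Finset.sum_range_succ]
      have h1 := hGb j
      have h2 : 2 * (M * G j) ≤ 16 * 4 ^ K * (M * G j) := by
        apply Nat.mul_le_mul_right
        have : 1 ≤ 4 ^ K := Nat.one_le_pow _ _ (by norm_num)
        omega
      have h3 : G (j + 1) ≤ M * G (j + 1) := Nat.le_mul_of_pos_left _ hM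
      omega
  have hlev : ∀ j, 1 ≤ j → j ≤ m → ((G j : ℕ) : ℤ) ∣
      (U : ℤ) - (4 * ∑ i ∈ range j, M * G i : ℕ) := by
    intro j _ hj
    have h1 : ((G j : ℕ) : ℤ) ∣ (U : ℤ) - (4 * ∑ i ∈ range m, M * G i : ℕ) :=
      (Int.natCast_dvd_natCast.2 (G_dvd hG hj)).trans hUG
    have h2 : (∑ i ∈ range m, M * G i) = (∑ i ∈ range j, M * G i) + ∑ i ∈ Ico j m, M * G i := by
      rw [Finset.sum_range_add_sum_Ico _ hj]
    have h3 : G j ∣ ∑ i ∈ Ico j m, M * G i := by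
      apply Finset.dvd_sum
      intro i hi
      exact Dvd.dvd.mul_left (G_dvd hG (mem_Ico.1 hi).1) _
    have h4 : (U : ℤ) - (4 * ∑ i ∈ range j, M * G i : ℕ) =
        ((U : ℤ) - (4 * ∑ i ∈ range m, M * G i : ℕ)) +
          ((4 * ∑ i ∈ Ico j m, M * G i : ℕ) : ℤ) := by
      rw [h2]; push_cast; ring
    rw [h4]
    exact dvd_add h1 (Int.natCast_dvd_natCast.2 (Dvd.dvd.mul_left h3 _))
  refine ⟨U, hUN, ?_, ?_, ?_⟩
  · intro i j hij
    have h1 : 4 ^ (i + 1) ≤ 4 ^ j := Nat.pow_le_pow_right (by norm_num) hij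
    have h2 : U * 4 ^ (i + 1) ≤ U * 4 ^ j := Nat.mul_le_mul_left _ h1
    have h3 : U * 4 ^ (i + 1) = U * 4 ^ i + 3 * (U * 4 ^ i) := by ring
    have h4 : U ≤ U * 4 ^ i := Nat.le_mul_of_pos_right _ (by positivity)
    omega
  · intro a b c d hab
    by_cases h : (4 * N : ℤ) < |(((U * 4 ^ a : ℕ) : ℤ) - (U * 4 ^ b : ℕ)) -
          (((U * 4 ^ c : ℕ) : ℤ) - (U * 4 ^ d : ℕ))|
    · exact Or.inr h
    · left
      push Not at h
      have h1 : |(U : ℤ) * (4 ^ a - 4 ^ b) - U * (4 ^ c - 4 ^ d)| < U := by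
        have e : (U : ℤ) * (4 ^ a - 4 ^ b) - U * (4 ^ c - 4 ^ d) =
            (((U * 4 ^ a : ℕ) : ℤ) - (U * 4 ^ b : ℕ)) -
              (((U * 4 ^ c : ℕ) : ℤ) - (U * 4 ^ d : ℕ)) := by push_cast; ring
        rw [e]
        have : ((4 * N : ℕ) : ℤ) < U := by exact_mod_cast hUN
        push_cast at this h ⊢
        linarith
      exact resol (by exact_mod_cast hUp) hab h1
  · intro T s hs
    have key : s ⊆ (Ms.biUnion fun k => s.filter fun ab =>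
          (k : ℤ) ∣ T + (U * 4 ^ ab.1 : ℕ) - (U * 4 ^ ab.2 : ℕ)) ∪
        ((Icc 1 m).biUnion fun j => s.filter fun ab => ∃ d : ℤ, |d| ≤ (M * G (j - 1) : ℕ) ∧
          (G j : ℤ) ∣ (T + (U * 4 ^ ab.1 : ℕ) - (U * 4 ^ ab.2 : ℕ)) - A j - d) := by
      intro ab hab
      obtain ⟨-, -, -, hB⟩ := hs ab hab
      rcases hB with ⟨k, hk, hd⟩ | ⟨j, h1, h2, d, hd, hdv⟩
      · exact mem_union_left _ (mem_biUnion.2 ⟨k, hk, mem_filter.2 ⟨hab, hd⟩⟩)
      · exact mem_union_right _ (mem_biUnion.2 ⟨j, mem_Icc.2 ⟨h1, h2⟩,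
          mem_filter.2 ⟨hab, d, hd, hdv⟩⟩)
    refine (card_le_card key).trans ((card_union_le _ _).trans (Nat.add_le_add ?_ ?_))
    · refine (card_biUnion_le).trans ?_
      refine (Finset.sum_le_card_nsmul _ _ 1 ?_).trans (by simp)
      intro k hk
      rw [Finset.card_le_one]
      intro p hp q hq
      obtain ⟨hp1, hp2⟩ := mem_filter.1 hp
      obtain ⟨hq1, hq2⟩ := mem_filter.1 hq
      obtain ⟨a1, a2, a3, -⟩ := hs p hp1
      obtain ⟨b1, b2, -, -⟩ := hs q hq1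
      have hk4 : (4 : ℤ) ^ K ≤ (k : ℤ) := by exact_mod_cast (hMs k hk).2
      have hkU : (k : ℤ) ∣ (U : ℤ) - 1 :=
        (Int.natCast_dvd_natCast.2 (hMs k hk).1).trans hUM
      have := dist_mod hk4 hkU a1 a2 b1 b2 a3 (by
        have e : (U : ℤ) * (4 ^ p.1 - 4 ^ p.2) - U * (4 ^ q.1 - 4 ^ q.2) =
          (T + (U * 4 ^ p.1 : ℕ) - (U * 4 ^ p.2 : ℕ)) -
            (T + (U * 4 ^ q.1 : ℕ) - (U * 4 ^ q.2 : ℕ)) := by push_cast; ring
        rw [e]
        exact dvd_sub hp2 hq2)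
      exact Prod.ext this.1 this.2
    · refine (card_biUnion_le).trans ?_
      refine (Finset.sum_le_card_nsmul _ _ 1 ?_).trans (by simp)
      intro j hj
      obtain ⟨j1, j2⟩ := mem_Icc.1 hj
      obtain ⟨i, rfl⟩ : ∃ i, j = i + 1 := ⟨j - 1, by omega⟩
      rw [Finset.card_le_one]
      intro p hp q hq
      obtain ⟨hp1, d, hd, hp2⟩ := mem_filter.1 hp
      obtain ⟨hq1, d', hd', hq2⟩ := mem_filter.1 hq
      obtain ⟨a1, a2, a3, -⟩ := hs p hp1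
      obtain ⟨b1, b2, -, -⟩ := hs q hq1
      have hcp : 0 < M * G i := Nat.mul_pos hM (hGp i)
      simp only [Nat.add_sub_cancel] at hd hd'
      have hs1 : M * G i ≤ ∑ t ∈ range (i + 1), M * G t := by
        rw [Finset.sum_range_succ]; omega
      have hs2 := hSb i
      have := level_unique (K := K) (g := (G (i + 1) : ℤ))
        (S := ((4 * ∑ t ∈ range (i + 1), M * G t : ℕ) : ℤ)) (U := (U : ℤ))
        (c := ((M * G i : ℕ) : ℤ)) (A := (A (i + 1) : ℤ)) (T := T) (by positivity)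
        (by exact_mod_cast (by omega : 4 * (M * G i) ≤ 4 * ∑ t ∈ range (i + 1), M * G t))
        (by exact_mod_cast hcp)
        (by exact_mod_cast (by omega : 4 * ∑ t ∈ range (i + 1), M * G t ≤ 8 * (M * G i)))
        (by exact_mod_cast hGb i) (hlev _ j1 j2) a1 a2 b1 b2 a3 hd hd'
        (by push_cast at hp2 ⊢; exact hp2) (by push_cast at hq2 ⊢; exact hq2)
      exact Prod.ext this.1 this.2

end Crest.Agent.R320.GridRuler_257
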