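import Crest.Agent.R320F.GridG_19
import Crest.Agent.R320F.GridRuler_257
import Crest.Agent.R320F.RegCongr_253

/-! Row 320: gadget 1 + ruler as one box (helper811) -/

set_option autoImplicit false

namespace Crest.Agent.R320.Box_811

open Crest.Agent.R320

theorem box (S V : Type) [Monoid S] [Finite S] [AddCommGroup V] [Finite V] (act : V → S → V) :
    ∃ R1 : ℕ, ∀ K : ℕ, ∃ (N1 N0 : ℕ) (c : ℕ → ℕ) (BadT : ℕ → Prop) (Pm : ℕ),
      (∀ i j, i < j → c i < c j) ∧
      (∀ i i' j j', i' ≠ i → j' ≠ j →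
        c i + c j' < c j + c i' + 2 * N1 → c j + c i' < c i + c j' + 2 * N1 → i = j) ∧
      (∀ T : ℕ, (∀ k, k < K → c k ≤ T) → ∀ I : Finset ℕ,
        (∀ k ∈ I, k < K ∧ ∃ k', k' < K ∧ k' ≠ k ∧ BadT (T + c k' - c k)) → I.card ≤ R1) ∧
      0 < Pm ∧ (∀ T, BadT (T + Pm) ↔ BadT T) ∧
      ∀ (α : Type) [Finite α] (f : α → S), ∃ (lam rho : List α → Option V) (nu : List α → V),
        (∀ P Q v r, lam P = some v → rho Q = some r →
          r = act v ((P ++ Q).map f).prod + nu (P ++ Q)) ∧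
        (∀ P v, lam P = some v → P.length ≤ N1) ∧
        (∀ Y : List α, N0 ≤ Y.length → ¬ BadT Y.length →
          ∀ v, ∃ P Q, Y = P ++ Q ∧ lam P = some v ∧ (rho Q).isSome) ∧
        (∀ y, Language.IsRegular ({Y | nu Y = y} : Language α)) := by
  classical
  obtain ⟨m, r, hgrid⟩ := GridG_19.grid.{0} S V act
  refine ⟨r + m, fun K => ?_⟩
  obtain ⟨Ms, hcard, hMs, hg⟩ := hgrid (4 ^ K)
  set M : ℕ := ∏ q ∈ Ms, q with hM
  have hM0 : 0 < M := Finset.prod_pos fun q hq => (hMs q hq).1.pos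
  set Γ : ℕ := 16 * 4 ^ K * M + 1 with hΓ
  have hΓ0 : 0 < Γ := by omega
  let G : ℕ → ℕ := fun j => Γ ^ j
  have hG0 : ∀ k, 0 < G k := fun k => pow_pos hΓ0 k
  have hGd : ∀ a b, a ≤ b → G a ∣ G b := fun a b h => pow_dvd_pow Γ h
  have hGd1 : ∀ j, G j ∣ G (j + 1) := fun j => hGd j (j + 1) (Nat.le_succ j)
  have hcopΓ : Nat.Coprime M Γ := by
    rw [hΓ]
    have : Nat.Coprime M (1 + M * (16 * 4 ^ K)) := by
      rw [Nat.coprime_add_mul_left_right]; exact Nat.coprime_one_right M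
    have e : 16 * 4 ^ K * M + 1 = 1 + M * (16 * 4 ^ K) := by ring
    rw [e]; exact this
  have hcop : ∀ k, Nat.Coprime M (G k) := fun k => Nat.Coprime.pow_right k hcopΓ
  set A : ℕ → ℕ := fun j => GridG_19.Am G M 0 j with hA
  set N1 : ℕ := A m with hN1
  have hMsd : ∀ k ∈ Ms, k ∣ M := fun k hk => Finset.dvd_prod_of_mem _ hk
  obtain ⟨U, hU1, hU2, hU3, hU4⟩ := GridRuler_257.ruler K m Ms M G A N1 hM0
    (fun k hk => ⟨hMsd k hk, (hMs k hk).2.le⟩) (hG0 0) hGd1
    (fun j => by
      show 16 * 4 ^ K * (M * Γ ^ j) ≤ Γ ^ (j + 1)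
      rw [pow_succ]
      calc 16 * 4 ^ K * (M * Γ ^ j) = (16 * 4 ^ K * M) * Γ ^ j := by ring
        _ ≤ Γ * Γ ^ j := Nat.mul_le_mul_right _ (by omega)
        _ = Γ ^ j * Γ := by ring)
    (hcop m)
  refine ⟨N1, 2 * N1 + M, fun i => U * 4 ^ i, fun T => GridRuler_257.BadZ Ms m M G A (T : ℤ),
    M * G m, ?_, ?_, ?_, Nat.mul_pos hM0 (hG0 m), ?_, ?_⟩
  · intro i j hij
    have := hU2 i j hij
    show U * 4 ^ i < U * 4 ^ j
    omega
  · intro i i' j j' h1 h2 h3 h4
    rcases hU3 i i' j j' (Ne.symm h1) with h | h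
    · exact h.1
    · exfalso
      simp only at h3 h4
      have h5 : |(((U * 4 ^ i : ℕ) : ℤ) - (U * 4 ^ i' : ℕ)) -
          (((U * 4 ^ j : ℕ) : ℤ) - (U * 4 ^ j' : ℕ))| ≤ 4 * N1 := by
        rw [abs_le]
        constructor <;> omega
      omega
  · intro T hT I hI
    choose! k' hk' using fun k (hk : k ∈ I) => (hI k hk).2
    have hinj : Set.InjOn (fun k => (k' k, k)) (I : Set ℕ) := by
      intro a _ b _ h
      exact (Prod.mk.inj h).2
    rw [← Finset.card_image_of_injOn hinj]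
    refine (hU4 (T : ℤ) (I.image fun k => (k' k, k)) ?_).trans (by omega)
    intro ab hab
    obtain ⟨k, hk, rfl⟩ := Finset.mem_image.1 hab
    refine ⟨(hk' k hk).1, (hI k hk).1, (hk' k hk).2.1, ?_⟩
    have h1 := (hk' k hk).2.2
    have h2 : U * 4 ^ k ≤ T := hT k (hI k hk).1
    have e : ((T + U * 4 ^ k' k - U * 4 ^ k : ℕ) : ℤ)
        = (T : ℤ) + (U * 4 ^ k' k : ℕ) - (U * 4 ^ k : ℕ) := by omega
    rw [← e]
    exact h1
  · intro T
    have := GridRuler_257.BadZ_period (Ms := Ms) (m := m) (M := M) (G := G) (A := A) hMsd hGd1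
      (T : ℤ)
    show GridRuler_257.BadZ Ms m M G A ((T + M * G m : ℕ) : ℤ) ↔ _
    rw [Nat.cast_add]
    exact this
  · intro α _ f
    obtain ⟨lam, rho, nu, h1, h2, h3, h4, h5⟩ := hg G 0 hG0 hGd (fun k => hcop k) α
      (fun w => (w.map f).prod) (fun u v => by simp)
    refine ⟨lam, rho, nu, fun P Q v r h6 h7 => h1 P Q v r h6 h7, fun P v h => (h2 P v h).2.le,
      ?_, ?_⟩
    · intro Y hY hb v
      have hAm : ∀ j, j ≤ m → A j ≤ A m := fun j hj => GridG_19.Am_mono G M 0 hj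
      have hcl := GridRuler_257.clear_of_not_bad (A := A) hG0 (T := Y.length)
        (fun j _ hj => (hAm j hj).trans (by omega)) hb
      obtain ⟨P, Q, h6, h7, h8⟩ := h4 Y (by
          show 2 * A m ≤ Y.length
          omega) (by
          show M ≤ Y.length
          omega) hcl.1 (by
          rintro ⟨k, hk, hk2⟩
          have := hcl.2 (k + 1) (by omega) (by omega)
          rw [Nat.add_sub_cancel] at this
          rcases hk2 with h | h
          · exact absurd this.1 (by
              have h' : (Y.length - A (k + 1)) % G (k + 1) < M * G k := h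
              omega)
          · have h' : G (k + 1) ≤ (Y.length - A (k + 1)) % G (k + 1) + M * G k := h
            omega) v
      exact ⟨P, Q, h6.symm, h7, h8⟩
    · intro y
      refine RegCongr_253.regular_of_congr f (GridG_19.Ac G M 0 m) (M * G m)
        (Nat.mul_pos hM0 (hG0 m)) _ ?_
      intro q q' hq hq' ht hl hp
      have hprod : (q.map f).prod = (q'.map f).prod := by
        rw [← List.take_append_drop (GridG_19.Ac G M 0 m) q,
          ← List.take_append_drop (GridG_19.Ac G M 0 m) q', List.map_append, List.map_append,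
          List.prod_append, List.prod_append, ht, hp]
      have := h5 q q' hq hq' ht hl hprod
      intro hqy
      have hqy' : nu q = y := hqy
      show nu q' = y
      rw [← this]; exact hqy'

end Crest.Agent.R320.Box_811
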