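import Crest.Agent.R320F.Box_811
import Crest.Agent.R320F.Joint_47
import Crest.Agent.R320F.Fib_298
import Crest.Agent.R320F.LWallAll_922
import Crest.Agent.R320F.Top5_110
import Crest.Agent.R320F.Fin_517
import Crest.Agent.R320F.Univ_188

/-! Row 320: the final assembly (helper811) -/

set_option autoImplicit false

namespace Crest.Agent.R320.Fin_811

open Crest.RegLang
open Crest.Agent.R320 Crest.Agent.R320.Hk_851 Crest.Agent.R320.Code110 Crest.Agent.R320.Top5_110

theorem fibres {α S V : Type} [Finite α] [Monoid S] [Fintype S] [AddCommGroup V] [Fintype V]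
    (f : α → S) (act : V → S → V) (hadd : ∀ v w s, act (v + w) s = act v s + act w s)
    (hone : ∀ v, act v 1 = v) (hmul : ∀ v s t, act (act v s) t = act v (s * t))
    (hfaith : ∀ s t : S, (∀ v, act v s = act v t) → s = t) (s : S) :
    HL 3 ({w | (w.map f).prod = s} : Language α) := by
  classical
  obtain ⟨R1, hbox⟩ := Box_811.box S V act
  obtain ⟨K, hK⟩ := ExactR_237.exact_gadget α S V f act (2 * R1 + 2)
  obtain ⟨N1, N0, c, BadT, Pm, hinc, hres, hT, hPm, hper, hgad⟩ := hbox K
  obtain ⟨lam, rho, nu1, hS, hL, hC, hnu⟩ := hgad α f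
  obtain ⟨lam2, rho2, nu2', hS2, hC2⟩ := hK c (fun i j h _ => hinc i j h)
  set p0 : ℕ := c K with hp0
  set W : ℕ := 2 * (N1 + p0) + 1 with hW
  obtain ⟨n, Gp, B, Wo, hLW, hgap, -, -, hfree⟩ := LWallAll_922.walls_all_left α W (by omega)
  set z : ℕ := 3 * p0 + n + N1 + 1 + N0 with hz
  have hlw : Joint_47.LW n W Wo := ⟨hLW.len, hLW.app, fun X s t h1 h2 h3 h4 => by
    have := hgap X s t h1 h2 h3 h4
    omega⟩
  have hwu : Fib_298.WallU Wo n (max B W) := ⟨hLW.app, hLW.len, fun X hX => by
    obtain ⟨u, x, v, k, h1, h2, h3, h4⟩ := hfree X hX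
    exact ⟨u, x, v, k, h4, h1.trans (le_max_left _ _), h2.trans (le_max_right _ _),
      h3.trans (le_max_left _ _)⟩⟩
  have hcp : ∀ k, k < K → c k ≤ p0 := fun k hk => (hinc k K hk).le
  let nu2 : List α → V := fun X => nu2' X 1
  let XX : Language α := Joint_47.Zn Wo z
  let Bd : Language α := {X | X ∈ Joint_47.Zn Wo z ∧ Joint_47.Bad Wo z N1 p0 BadT X}
  let T : List α → V → V := fun u v => Joint_47.T f act p0 nu2 nu1 v u
  let L1 : V → Language α := fun v => {P | Joint_47.L1 f act p0 nu2 lam v P}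
  let L2 : V → Language α := fun v => {P | Joint_47.L2 K c lam2 v P}
  have hsub : ∀ v w s, act (v - w) s = act v s - act w s := by
    intro v w s
    have := hadd (v - w) w s
    rw [sub_add_cancel] at this
    rw [this]; abel
  have hPC : PC XX := ⟨fun h => by
      have h1 : z ≤ ([] : List α).length := h.1
      rw [List.length_nil] at h1
      omega, fun u hu v hv h => Joint_47.Zn_prefix hu hv h (List.prefix_refl v)⟩
  have hXXreg : XX.IsRegular := Reg_236.HL.isRegular (Fib_298.HL_XX (k := 1) hwu z)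
  have hBpred : Language.IsRegular ({X | Joint_47.Bad Wo z N1 p0 BadT X} : Language α) := by
    refine RegCongr_253.regular_of_congr f (z + N1) Pm hPm _ ?_
    intro q q' hq hq' ht hl _ hb
    rcases hb with ⟨t, h1, h2, h3, h4⟩ | hb
    · refine Or.inl ⟨t, h1, h2, by omega, ?_⟩
      have e : q'.take t = q.take t := by
        have e1 : q.take t = (q.take (z + N1)).take t := by
          rw [List.take_take, min_eq_left h2.le]
        have e2 : q'.take t = (q'.take (z + N1)).take t := by
          rw [List.take_take, min_eq_left h2.le]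
        rw [e1, e2, ht]
      rw [e]; exact h4
    · refine Or.inr ?_
      have hperk : ∀ k T, BadT (T + k * Pm) ↔ BadT T := by
        intro k
        induction k with
        | zero => intro T; simp
        | succ k ih =>
          intro T
          rw [Nat.succ_mul, ← add_assoc, hper, ih]
      have key : ∀ a b : ℕ, a ≤ b → a % Pm = b % Pm → p0 ≤ a →
          (BadT (a - p0) ↔ BadT (b - p0)) := by
        intro a b hab hmod hpa
        obtain ⟨k, hk⟩ := (Nat.modEq_iff_dvd' hab).1 hmod
        have e : b - p0 = (a - p0) + k * Pm := by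
          rw [mul_comm]; omega
        rw [e, hperk]
      have hq1 : p0 ≤ q.length := by omega
      have hq2 : p0 ≤ q'.length := by omega
      rcases le_total q.length q'.length with h | h
      · exact (key _ _ h hl hq1).1 hb
      · exact (key _ _ h hl.symm hq2).2 hb
  have hbd : ∀ v P, Joint_47.L1 f act p0 nu2 lam v P → P.length ≤ p0 + N1 := by
    intro v P h
    have h1 := hL _ _ h.2
    rw [List.length_drop] at h1
    omega
  have hfin : ∀ n : ℕ, {l : List α | l.length ≤ n}.Finite := fun n => List.finite_length_le α n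
  refine top_sem (φ := fun w => (w.map f).prod) (act := act) (XX := XX) (Bad := Bd) (T := T)
    (N1 := 0) (N2 := 1) (L1 := L1) (L2 := L2) (by simp) (by intro u w; simp) hone
    (fun v s t => (hmul v s t).symm) hfaith hPC (fun u hu => hu.1) ?_ ?_ ?_ ?_ ?_ ?_ ?_ ?_ ?_ s
  · -- hT
    intro u _ v v'
    show act (act v (ExactR_237.pr f (u.take p0)) + nu2 (u.take p0))
        (ExactR_237.pr f (u.drop p0)) + nu1 (u.drop p0) -
      (act (act v' (ExactR_237.pr f (u.take p0)) + nu2 (u.take p0))
        (ExactR_237.pr f (u.drop p0)) + nu1 (u.drop p0)) = _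
    have e : (u.map f).prod = ExactR_237.pr f (u.take p0) * ExactR_237.pr f (u.drop p0) := by
      rw [← ExactR_237.pr_append, List.take_append_drop]; rfl
    rw [e, ← hmul, hsub, hsub, hadd, hadd]
    abel
  · exact Fib_298.HL_XX hwu z
  · refine (Fib_298.HL_blocks hwu (z := z) (by omega) (L := XX ⊓ {X | Joint_47.Bad Wo z N1 p0 BadT X})
      (hXXreg.inf hBpred) (fun w hw => hw.1)).congr fun w => Iff.rfl
  · intro x y
    exact Fib_298.hfib hwu (z := z) (by omega) act f p0 (by omega)
      (fun v X => act v (X.map f).prod + nu2 X) nu1 hnu x y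
  · intro s
    exact (Fib_298.rest hwu (z := z) (by omega) f s).mono (by norm_num)
  · intro v
    refine (hfin (p0 + N1)).subset ?_
    intro P hP
    exact hbd v P hP
  · intro v
    refine (hfin p0).subset ?_
    rintro P ⟨k, hk, hk2, -⟩
    show P.length ≤ p0
    rw [hk2]; exact hcp k hk
  · -- scheme 1
    intro u hu hub x t ht
    have ht0 : t = [] := by
      rw [pow_zero] at ht
      exact (Language.mem_one _).1 ht
    subst ht0
    have hnb : ¬ Joint_47.Bad Wo z N1 p0 BadT u := fun h => hub ⟨hu, h⟩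
    obtain ⟨p, q, h1, h2, -, h4⟩ := Joint_47.complete1 f act p0 nu2 nu1 (n := n) (W := W)
      (N1 := N1) (N0 := N0) (z := z) hlw hS hL hC (by omega) (by omega) hu hnb x
    refine ⟨p, q, T u x, by rw [List.append_nil]; exact h1, h2, ?_⟩
    intro x' p' hp'
    refine Or.inl ?_
    obtain ⟨h5, h6⟩ := h4 x' p' hp'
    exact ⟨T u x, Language.mem_mul.2 ⟨p' ++ q, ⟨h5, h6⟩, [], ⟨rfl, rfl⟩, List.append_nil _⟩⟩
  · -- scheme 2
    intro u hu x t ht
    rw [pow_one] at ht
    obtain ⟨p, q, h1, h2, -, h4⟩ := Joint_47.complete2 f act p0 nu1 (n := n) (W := W)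
      (N1 := N1) (z := z) (K := K) (R1 := R1) hlw (c := c) (lam2 := lam2) (rho2 := rho2)
      (nu2' := nu2') hS2 hC2 (fun i j h _ => hinc i j h) hcp
      (fun i i' j j' _ _ _ _ h1 h2 h3 h4 => hres i i' j j' h1 h2 h3 h4) hT (by omega) (by omega)
      hu.1 ht.1 hu.2 x
    refine ⟨p, q, T t (T u x), h1, h2, ?_⟩
    intro x' p' hp'
    rcases h4 x' p' hp' with ⟨a, ha1, ha2, ha3, ha4⟩ | ⟨a, ha1, ha2, ha3⟩
    · refine Or.inl ?_
      refine ⟨T u x, Language.mem_mul.2 ⟨a, ⟨⟨ha1, ha2⟩, ha4⟩, t, ?_, ha3.symm⟩⟩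
      exact ⟨T t (T u x), Language.mem_mul.2 ⟨t, ⟨ht, rfl⟩, [], ⟨rfl, rfl⟩, List.append_nil _⟩⟩
    · exact Or.inr (Or.inl ⟨a, ha1, fun h => ha2 h.2, ha3⟩)

theorem fin0 {α : Type} [Finite α] (S : Type) [Monoid S] [Finite S] (f : α → S) (s : S) :
    HL 3 ({w | (w.map f).prod = s} : Language α) := by
  classical
  haveI := Fintype.ofFinite S
  refine fibres (V := S → ZMod 2) f Fin_517.pact Fin_517.pact_add Fin_517.pact_one
    Fin_517.pact_mul ?_ s
  intro s t h
  exact Fin_517.pact_inj (h _)

/-- **S0495** -/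
theorem final.{u} (α : Type u) [Finite α] (L : Language α) (hL : L.IsRegular) :
    ∃ e : GRegExp α, e.height ≤ 3 ∧ e.lang = L :=
  Univ_188.of_type0 3 (fun α _ L hL => of_monoid (k := 3) (fun S _ _ φ s => fin0 S φ s) L hL) α L hL

end Crest.Agent.R320.Fin_811
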