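import Crest.Agent.R320F.Blk_517

/-!
# Row 320: two schemes on one (possibly infinite) prefix code of blocks, height three (helper517)

Labels are relations (`L v`, `R v` languages); right words of scheme 2 may reach over the next block.
The promise of scheme 2 is the block property `Bad`; `Bad*` is intersected.
-/

set_option autoImplicit false

namespace Crest.Agent.R320.Top_517

open Crest.RegLang Crest.Agent.R320.Hk_851 Crest.Agent.R320.Blk_517

universe u

variable {α : Type u} {V : Type*} {k : ℕ}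

/-- flights between two cuts -/
def KK (U : V → V → Language α) (L R : V → Language α) : Language α :=
  {w | ∃ v1 v2, w ∈ R v1 * U v1 v2 * L v2}

/-- the claimed language -/
def EE (U : V → V → Language α) (L R : V → Language α) (v v' : V) : Language α :=
  {w | w ∈ U v v' ∨ ∃ v1 v2, w ∈ U v v1 * L v1 * KStar.kstar (KK U L R) * R v2 * U v2 v'}

theorem EE_hl [Finite V] {U : V → V → Language α} {L R : V → Language α}
    (hL : ∀ v, HL k (L v)) (hR : ∀ v, HL k (R v)) (hU : ∀ v v', HL k (U v v')) (v v' : V) :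
    HL (k + 1) (EE U L R v v') := by
  have hK : HL k (KK U L R) := by
    refine (HL.iUnion (L := fun v1 : V => ({w | ∃ v2, w ∈ R v1 * U v1 v2 * L v2} : Language α))
      fun v1 => ?_).congr fun w => Iff.rfl
    exact (HL.iUnion (L := fun v2 : V => R v1 * U v1 v2 * L v2)
      fun v2 => ((hR v1).mul (hU v1 v2)).mul (hL v2)).congr fun w => Iff.rfl
  have hk : k ≤ k + 1 := Nat.le_succ k
  refine HL.setOf_or ((hU v v').mono hk) ?_
  refine (HL.iUnion (L := fun v1 : V => ({w | ∃ v2, w ∈ U v v1 * L v1 *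
    KStar.kstar (KK U L R) * R v2 * U v2 v'} : Language α)) fun v1 => ?_).congr fun w => Iff.rfl
  refine (HL.iUnion (L := fun v2 : V => (U v v1 * L v1 * KStar.kstar (KK U L R) * R v2 *
    U v2 v')) fun v2 => ?_).congr fun w => Iff.rfl
  exact ((((hU v v1).mono hk).mul ((hL v1).mono hk)).mul hK.star).mul
    ((hR v2).mono hk) |>.mul ((hU v2 v').mono hk)

/-- one more cut in front -/
theorem EE_cut {U : V → V → Language α} {L R : V → Language α} (hU0 : ∀ v, [] ∈ U v v)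
    {v v1 v' : V} {P Q w : List α} (hP : P ∈ L v) (hQ : Q ∈ R v1) (hw : w ∈ EE U L R v1 v') :
    P ++ Q ++ w ∈ EE U L R v v' := by
  rcases hw with h | ⟨x1, x2, h⟩
  · refine Or.inr ⟨v, v1, ?_⟩
    refine Language.mem_mul.2 ⟨P ++ Q, ?_, w, h, rfl⟩
    refine Language.mem_mul.2 ⟨P, ?_, Q, hQ, rfl⟩
    refine Language.mem_mul.2 ⟨P, ?_, [], Language.nil_mem_kstar _, by simp⟩
    exact Language.mem_mul.2 ⟨[], hU0 v, P, hP, by simp⟩
  · obtain ⟨a4, h4, a5, h5, e4⟩ := Language.mem_mul.1 h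
    obtain ⟨a3, h3, q, hq, e3⟩ := Language.mem_mul.1 h4
    obtain ⟨a2, h2, s, hs, e2⟩ := Language.mem_mul.1 h3
    obtain ⟨a1, h1, p, hp, e1⟩ := Language.mem_mul.1 h2
    have hKw : Q ++ a1 ++ p ∈ KK U L R :=
      ⟨v1, x1, Language.mem_mul.2 ⟨Q ++ a1, Language.mem_mul.2 ⟨Q, hQ, a1, h1, rfl⟩, p, hp, rfl⟩⟩
    have hst : (Q ++ a1 ++ p) ++ s ∈ KStar.kstar (KK U L R) := by
      obtain ⟨Ss, hS1, hS2⟩ := Language.mem_kstar.1 hs
      refine Language.mem_kstar.2 ⟨(Q ++ a1 ++ p) :: Ss, ?_, ?_⟩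
      · rw [List.flatten_cons, hS1]
      · intro y hy
        rcases List.mem_cons.1 hy with rfl | hy
        · exact hKw
        · exact hS2 y hy
    refine Or.inr ⟨v, x2, ?_⟩
    refine Language.mem_mul.2 ⟨P ++ ((Q ++ a1 ++ p) ++ s) ++ q, ?_, a5, h5, ?_⟩
    · refine Language.mem_mul.2 ⟨P ++ ((Q ++ a1 ++ p) ++ s), ?_, q, hq, rfl⟩
      refine Language.mem_mul.2 ⟨P, ?_, _, hst, rfl⟩
      exact Language.mem_mul.2 ⟨[], hU0 v, P, hP, by simp⟩
    · rw [← e4, ← e3, ← e2, ← e1]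
      simp [List.append_assoc]

/-- one more uncut block in front -/
theorem EE_pre {U : V → V → Language α} {L R : V → Language α} {X : List α} {v v1 : V}
    (hX : ∀ v' w, w ∈ U v1 v' → X ++ w ∈ U v v') {v' : V} {w : List α}
    (hw : w ∈ EE U L R v1 v') : X ++ w ∈ EE U L R v v' := by
  rcases hw with h | ⟨x1, x2, h⟩
  · exact Or.inl (hX _ _ h)
  · refine Or.inr ⟨x1, x2, ?_⟩
    obtain ⟨a4, h4, a5, h5, e4⟩ := Language.mem_mul.1 h
    obtain ⟨a3, h3, q, hq, e3⟩ := Language.mem_mul.1 h4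
    obtain ⟨a2, h2, s, hs, e2⟩ := Language.mem_mul.1 h3
    obtain ⟨a1, h1, p, hp, e1⟩ := Language.mem_mul.1 h2
    refine Language.mem_mul.2 ⟨X ++ a4, ?_, a5, h5, by rw [List.append_assoc, e4]⟩
    refine Language.mem_mul.2 ⟨X ++ a3, ?_, q, hq, by rw [List.append_assoc, e3]⟩
    refine Language.mem_mul.2 ⟨X ++ a2, ?_, s, hs, by rw [List.append_assoc, e2]⟩
    exact Language.mem_mul.2 ⟨X ++ a1, hX _ _ h1, p, hp, by rw [List.append_assoc, e1]⟩

/-- a junction inside a text of blocks of `C` is sound and reaches a node -/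
def Sound (C : Set (List α)) (T : V → List α → V) (L R : V → Language α) : Prop :=
  ∀ v v' P Q, P ∈ L v → Q ∈ R v' → ∀ (Ns : List (List α)) (r : List α), (∀ X ∈ Ns, X ∈ C) →
    Ns.flatten = P ++ (Q ++ r) → ∃ N1 N2, Ns = N1 ++ N2 ∧ N1.flatten = P ++ Q ∧
      runB T v N1 = v'

theorem EE_sound {XX C : Set (List α)} {T : V → List α → V} {U : V → V → Language α}
    {L R : V → Language α} (hXX : PCode XX) (hCX : C ⊆ XX)
    (hU : ∀ v v' w, w ∈ U v v' → ∃ Bs : List (List α), (∀ X ∈ Bs, X ∈ XX) ∧ w = Bs.flatten ∧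
      runB T v Bs = v')
    (sound : Sound C T L R) (v v' : V)
    (Ms : List (List α)) (hM : ∀ X ∈ Ms, X ∈ C) (hw : Ms.flatten ∈ EE U L R v v') :
    runB T v Ms = v' := by
  have step : ∀ (p q r : List α) (v1 w1 : V) (Ns : List (List α)), p ∈ L v1 →
      q ∈ R w1 → (∀ X ∈ Ns, X ∈ C) → Ns.flatten = p ++ (q ++ r) →
      ∃ Ns', (∀ X ∈ Ns', X ∈ C) ∧ Ns'.flatten = r ∧ runB T v1 Ns = runB T w1 Ns' := by
    intro p q r v1 w1 Ns hp hq hN he
    obtain ⟨N1, N2, h1, h2, h3⟩ := sound v1 w1 p q hp hq Ns r hN he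
    refine ⟨N2, fun X hX => hN X (by rw [h1]; simp [hX]), ?_, ?_⟩
    · rw [h1, List.flatten_append, h2, List.append_assoc] at he
      exact List.append_cancel_left (List.append_cancel_left he)
    · rw [h1, runB_append, h3]
  have key : ∀ S : List (List α), (∀ y ∈ S, y ∈ KK U L R) → ∀ (p r : List α) (v1 : V)
      (Ns : List (List α)), p ∈ L v1 → (∀ X ∈ Ns, X ∈ C) →
      Ns.flatten = p ++ (S.flatten ++ r) →
      ∃ (Ns' : List (List α)) (p' : List α) (v1' : V), p' ∈ L v1' ∧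
        (∀ X ∈ Ns', X ∈ C) ∧ Ns'.flatten = p' ++ r ∧ runB T v1 Ns = runB T v1' Ns' := by
    intro S
    induction S with
    | nil => intro _ p r v1 Ns hp hN he; exact ⟨Ns, p, v1, hp, hN, by simpa using he, rfl⟩
    | cons y S ih =>
      intro hS p r v1 Ns hp hN he
      obtain ⟨w1, w2, hy⟩ := hS y (by simp)
      obtain ⟨a, ha, p2, hp2, e2⟩ := Language.mem_mul.1 hy
      obtain ⟨q, hq, m, hm, e1⟩ := Language.mem_mul.1 ha
      obtain ⟨Bs, hB1, hB2, hB3⟩ := hU _ _ _ hm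
      rw [List.flatten_cons, ← e2, ← e1] at he
      simp only [List.append_assoc] at he
      obtain ⟨N1, k1, k2, k3⟩ := step p q _ v1 w1 Ns hp hq hN he
      rw [hB2] at k2
      obtain ⟨N2, k4, k5⟩ := hXX.split Bs N1 _ (fun X hX => hCX (k1 X hX)) hB1 k2
      obtain ⟨N3, p', v1', l1, l2, l3, l4⟩ := ih (fun z hz => hS z (by simp [hz])) p2 r w2 N2 hp2
        (fun X hX => k1 X (by rw [k4]; simp [hX])) k5
      refine ⟨N3, p', v1', l1, l2, l3, ?_⟩
      rw [k3, k4, runB_append, hB3, l4]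
  rcases hw with h | ⟨v1, v2, h⟩
  · obtain ⟨Ns, h1, h2, h3⟩ := hU _ _ _ h
    have := hXX.unique Ms Ns (fun X hX => hCX (hM X hX)) h1 h2
    rw [this]; exact h3
  · obtain ⟨a4, h4, a5, h5, e4⟩ := Language.mem_mul.1 h
    obtain ⟨Bs2, hb1, hb2, hb3⟩ := hU _ _ _ h5
    obtain ⟨a3, h3, q, hq, e3⟩ := Language.mem_mul.1 h4
    obtain ⟨a2, h2, s, hs, e2⟩ := Language.mem_mul.1 h3
    obtain ⟨a1, ha1, p, hp, e1⟩ := Language.mem_mul.1 h2
    obtain ⟨Bs1, hc1, hc2, hc3⟩ := hU _ _ _ ha1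
    obtain ⟨S, hS1, hS2⟩ := Language.mem_kstar.1 hs
    have he : Ms.flatten = Bs1.flatten ++ (p ++ (S.flatten ++ (q ++ Bs2.flatten))) := by
      rw [← e4, ← e3, ← e2, ← e1, hc2, hb2, hS1]
      simp only [List.append_assoc]
    obtain ⟨N1, k1, k2⟩ := hXX.split Bs1 Ms _ (fun X hX => hCX (hM X hX)) hc1 he
    have hN1 : ∀ X ∈ N1, X ∈ C := fun X hX => hM X (by rw [k1]; simp [hX])
    obtain ⟨N2, p', v1', l1, l2, l3, l4⟩ := key S hS2 p _ v1 N1 hp hN1 k2
    obtain ⟨N3, m1, m2, m3⟩ := step p' q _ v1' v2 N2 l1 hq l2 l3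
    have := hXX.unique N3 Bs2 (fun X hX => hCX (m1 X hX)) hb1 m2
    rw [k1, runB_append, hc3, l4, m3, this, hb3]

/-- junction inside one block, sound on all of `XX` -/
theorem sound_one {XX : Set (List α)} {T : V → List α → V} {L R : V → Language α}
    (hXX : PCode XX)
    (s : ∀ v v' P Q, P ∈ L v → Q ∈ R v' → P ++ Q ∈ XX ∧ T v (P ++ Q) = v') :
    Sound XX T L R := by
  intro v v' P Q hP hQ Ns r hN he
  obtain ⟨h1, h2⟩ := s v v' P Q hP hQ
  obtain ⟨N2, k1, k2⟩ := hXX.split [P ++ Q] Ns r hN (by simpa using h1)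
    (by rw [he]; simp [List.append_assoc])
  exact ⟨[P ++ Q], N2, k1, by simp, by simpa using h2⟩

/-- junction whose right word reaches over the next block, sound on the blocks of `C` -/
theorem sound_two {C : Set (List α)} {T : V → List α → V} {L R : V → Language α}
    (hL0 : ∀ v, [] ∉ L v)
    (hlen : ∀ v v' P Q X, P ∈ L v → Q ∈ R v' → X ∈ C → ¬ P ++ Q <+: X)
    (s : ∀ v v' P Q X1 X2, P ∈ L v → Q ∈ R v' → X1 ∈ C → X2 ∈ C →
      (X1 ++ X2 <+: P ++ Q ∨ P ++ Q <+: X1 ++ X2) → X1 ++ X2 = P ++ Q ∧ T (T v X1) X2 = v') :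
    Sound C T L R := by
  intro v v' P Q hP hQ Ns r hN he
  cases Ns with
  | nil =>
    simp only [List.flatten_nil] at he
    have h1 : P = [] := (List.append_eq_nil_iff.1 he.symm).1
    exact (hL0 v (h1 ▸ hP)).elim
  | cons X1 Ns =>
    cases Ns with
    | nil =>
      simp only [List.flatten_cons, List.flatten_nil, List.append_nil] at he
      exact (hlen v v' P Q X1 hP hQ (hN X1 (by simp)) ⟨r, by rw [he, List.append_assoc]⟩).elim
    | cons X2 Ns =>
      simp only [List.flatten_cons] at he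
      obtain ⟨h1, h2⟩ := s v v' P Q X1 X2 hP hQ (hN X1 (by simp)) (hN X2 (by simp))
        (List.prefix_or_prefix_of_prefix (l₃ := X1 ++ (X2 ++ Ns.flatten))
          ⟨Ns.flatten, by rw [List.append_assoc]⟩ ⟨r, by rw [he, List.append_assoc]⟩)
      refine ⟨[X1, X2], Ns, rfl, by simpa using h1, by simpa using h2⟩

/-- junction whose right word reaches over the next block, one-block text form -/
def Blk1 (C : Set (List α)) (T : V → List α → V) (v v' : V) : Language α :=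
  {w | ∃ Ms : List (List α), (∀ X ∈ Ms, X ∈ C) ∧ Ms.length ≤ 1 ∧ w = Ms.flatten ∧
    runB T v Ms = v'}

theorem Blk1_hl {C : Set (List α)} {T : V → List α → V}
    (h : ∀ v v', HL k ({X | X ∈ C ∧ T v X = v'} : Language α)) (v v' : V) :
    HL k (Blk1 C T v v') := by
  refine (HL.setOf_or ((HL.one (α := α) (k := k)).setOf_and (HL.const (v = v')))
    (h v v')).congr fun w => ?_
  constructor
  · rintro ⟨Ms, h1, h2, rfl, h4⟩
    cases Ms with
    | nil => exact Or.inl ⟨rfl, h4⟩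
    | cons X Ms =>
      cases Ms with
      | nil => exact Or.inr ⟨by simpa using h1 X (by simp), by simpa using h4⟩
      | cons Y Ms => simp at h2
  · rintro (⟨h1, h2⟩ | ⟨h1, h2⟩)
    · exact ⟨[], by simp, by simp, h1, h2⟩
    · exact ⟨[w], by simpa using h1, by simp, by simp, by simpa using h2⟩

/-- **the inner scheme** (promise `C`, right words reach over the next block): `k -> k + 1` -/
theorem level_two [Finite V] {XX C : Set (List α)} {T : V → List α → V}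
    {L R : V → Language α} (hXX : PCode XX) (hCX : C ⊆ XX)
    (hL : ∀ v, HL k (L v)) (hR : ∀ v, HL k (R v)) (sound : Sound C T L R)
    (complete : ∀ X ∈ C, ∀ Y ∈ C, ∀ v, ∃ P Q, X ++ Y = P ++ Q ∧ P ∈ L v ∧
      Q ∈ R (T (T v X) Y))
    (hC : HL k (C : Language α)) (h1 : ∀ v v', HL k ({X | X ∈ C ∧ T v X = v'} : Language α))
    (v v' : V) : HL (k + 1) (BL C T v v') := by
  refine ((St_hl hC).inf (EE_hl hL hR (Blk1_hl h1) v v')).congr fun w => ?_
  have hcomp : ∀ (n : ℕ) (Ms : List (List α)) (v : V), Ms.length ≤ n → (∀ X ∈ Ms, X ∈ C) →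
      Ms.flatten ∈ EE (Blk1 C T) L R v (runB T v Ms) := by
    intro n
    induction n with
    | zero =>
      intro Ms v hl hM
      have : Ms = [] := List.length_eq_zero_iff.1 (by omega)
      subst this
      exact Or.inl ⟨[], by simp, by simp, rfl, rfl⟩
    | succ n ih =>
      intro Ms v hl hM
      cases Ms with
      | nil => exact Or.inl ⟨[], by simp, by simp, rfl, rfl⟩
      | cons X Ms =>
        cases Ms with
        | nil => exact Or.inl ⟨[X], hM, by simp, rfl, rfl⟩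
        | cons Y Ms =>
          obtain ⟨P, Q, e, hP, hQ⟩ := complete X (hM X (by simp)) Y (hM Y (by simp)) v
          have hI := ih Ms (T (T v X) Y) (by simp only [List.length_cons] at hl; omega)
            (fun Z hZ => hM Z (by simp [hZ]))
          have h0 : ∀ v, [] ∈ Blk1 C T v v := fun v => ⟨[], by simp, by simp, rfl, rfl⟩
          have := EE_cut h0 hP hQ hI
          rw [← e] at this
          simpa [List.append_assoc] using this
  constructor
  · rintro ⟨Ms, h1, rfl, h3⟩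
    exact ⟨⟨Ms, h1, rfl⟩, h3 ▸ hcomp _ Ms v le_rfl h1⟩
  · rintro ⟨⟨Ms, h1, rfl⟩, h2⟩
    refine ⟨Ms, h1, rfl, EE_sound hXX hCX ?_ sound v v' Ms h1 h2⟩
    rintro v v' w ⟨Bs, k1, -, k2, k3⟩
    exact ⟨Bs, fun X hX => hCX (k1 X hX), k2, k3⟩

/-- **the outer scheme** (sound on all blocks, one-block right words): `k -> k + 1` -/
theorem level_one [Finite V] {XX Bad : Set (List α)} {T : V → List α → V}
    {L R : V → Language α} (hXX : PCode XX) (hBX : Bad ⊆ XX)
    (hL : ∀ v, HL k (L v)) (hR : ∀ v, HL k (R v)) (sound : Sound XX T L R)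
    (complete : ∀ X ∈ XX, X ∉ Bad → ∀ v, ∃ P Q, X = P ++ Q ∧ P ∈ L v ∧ Q ∈ R (T v X))
    (hC : HL k (XX : Language α)) (hBad : ∀ v v', HL k (BL Bad T v v'))
    (v v' : V) : HL (k + 1) (BL XX T v v') := by
  refine ((St_hl hC).inf (EE_hl hL hR hBad v v')).congr fun w => ?_
  have hcomp : ∀ (Ms : List (List α)) (v : V), (∀ X ∈ Ms, X ∈ XX) →
      Ms.flatten ∈ EE (BL Bad T) L R v (runB T v Ms) := by
    intro Ms
    induction Ms with
    | nil => intro v _; exact Or.inl ⟨[], by simp, rfl, rfl⟩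
    | cons X Ms ih =>
      intro v hM
      have hI := ih (T v X) (fun Z hZ => hM Z (by simp [hZ]))
      by_cases hb : X ∈ Bad
      · refine EE_pre ?_ hI
        rintro v' w ⟨Ns, k1, k2, k3⟩
        refine ⟨X :: Ns, ?_, ?_, by rw [runB_cons, k3]⟩
        · intro Z hZ
          rcases List.mem_cons.1 hZ with rfl | hZ
          · exact hb
          · exact k1 Z hZ
        · rw [List.flatten_cons, k2]
      · obtain ⟨P, Q, e, hP, hQ⟩ := complete X (hM X (by simp)) hb v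
        have h0 : ∀ v, [] ∈ BL Bad T v v := fun v => ⟨[], by simp, rfl, rfl⟩
        have := EE_cut h0 hP hQ hI
        rw [← e] at this
        exact this
  constructor
  · rintro ⟨Ms, h1, rfl, h3⟩
    exact ⟨⟨Ms, h1, rfl⟩, h3 ▸ hcomp Ms v h1⟩
  · rintro ⟨⟨Ms, h1, rfl⟩, h2⟩
    refine ⟨Ms, h1, rfl, EE_sound hXX le_rfl ?_ sound v v' Ms h1 h2⟩
    rintro v v' w ⟨Bs, k1, k2, k3⟩
    exact ⟨Bs, fun X hX => hBX (k1 X hX), k2, k3⟩

/-- **TOP: two schemes, all words, height three.** -/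
theorem top3 [Finite V] {XX Bad : Set (List α)} {T : V → List α → V}
    {L1 R1 L2 R2 : V → Language α} (hXX : PCode XX) (hBX : Bad ⊆ XX)
    (hX1 : HL 1 (XX : Language α)) (hB1 : HL 1 (Bad : Language α))
    (hBT : ∀ v v', HL 1 ({X | X ∈ Bad ∧ T v X = v'} : Language α))
    (hL1 : ∀ v, HL 1 (L1 v)) (hR1 : ∀ v, HL 1 (R1 v))
    (hL2 : ∀ v, HL 1 (L2 v)) (hR2 : ∀ v, HL 1 (R2 v)) (hL0 : ∀ v, [] ∉ L2 v)
    (s1 : ∀ v v' P Q, P ∈ L1 v → Q ∈ R1 v' → P ++ Q ∈ XX ∧ T v (P ++ Q) = v')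
    (c1 : ∀ X ∈ XX, X ∉ Bad → ∀ v, ∃ P Q, X = P ++ Q ∧ P ∈ L1 v ∧ Q ∈ R1 (T v X))
    (hlen : ∀ v v' P Q X, P ∈ L2 v → Q ∈ R2 v' → X ∈ Bad → ¬ P ++ Q <+: X)
    (s2 : ∀ v v' P Q X1 X2, P ∈ L2 v → Q ∈ R2 v' → X1 ∈ Bad → X2 ∈ Bad →
      (X1 ++ X2 <+: P ++ Q ∨ P ++ Q <+: X1 ++ X2) → X1 ++ X2 = P ++ Q ∧ T (T v X1) X2 = v')
    (c2 : ∀ X ∈ Bad, ∀ Y ∈ Bad, ∀ v, ∃ P Q, X ++ Y = P ++ Q ∧ P ∈ L2 v ∧
      Q ∈ R2 (T (T v X) Y)) (v v' : V) : HL 3 (BL XX T v v') := by
  have hb := level_two (k := 1) hXX hBX hL2 hR2 (sound_two hL0 hlen s2) c2 hB1 hBT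
  have h12 : (1 : ℕ) ≤ 2 := by omega
  exact level_one (k := 2) hXX hBX (fun v => (hL1 v).mono h12) (fun v => (hR1 v).mono h12)
    (sound_one hXX s1) c1 (hX1.mono h12) hb v v'

end Crest.Agent.R320.Top_517
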